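import Mathlib

/-!
# P131: a degenerate nonzero element of the double commutant gives a hyperinvariant subspace

Let `T` be a bounded operator on a complex Hilbert space and let `S` be a nonzero bounded operator
commuting with every operator that commutes with `T`.  If `S` is not injective, or the range of `S`
is not dense, then `T` has a closed hyperinvariant subspace different from `0` and from the whole
space (the kernel of `S`, respectively the closure of its range).
-/

namespace Vale.Agent.Results.P131.DoubleCommutant

theorem result {H : Type*} [NormedAddCommGroup H] [InnerProductSpace ℂ H] [CompleteSpace H]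
    (T S : H →L[ℂ] H)
    (hS : ∀ A : H →L[ℂ] H, A * T = T * A → A * S = S * A)
    (hS0 : S ≠ 0)
    (hdeg : (∃ x : H, x ≠ 0 ∧ S x = 0) ∨ ¬ DenseRange S) :
    ∃ M : Submodule ℂ H, IsClosed (M : Set H) ∧ M ≠ ⊥ ∧ M ≠ ⊤ ∧
      ∀ A : H →L[ℂ] H, A * T = T * A → ∀ x ∈ M, A x ∈ M := by
  have hcomm : ∀ A : H →L[ℂ] H, A * T = T * A → ∀ y : H, A (S y) = S (A y) := by
    intro A hA y
    have := DFunLike.congr_fun (hS A hA) y
    simpa using this
  obtain ⟨y0, hy0⟩ : ∃ y : H, S y ≠ 0 := by
    by_contra hcon
    apply hS0
    ext y
    by_contra hy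
    exact hcon ⟨y, hy⟩
  rcases hdeg with ⟨x, hx0, hx⟩ | hnd
  · refine ⟨LinearMap.ker (S : H →ₗ[ℂ] H), S.isClosed_ker, ?_, ?_, ?_⟩
    · intro hbot
      apply hx0
      have : x ∈ LinearMap.ker (S : H →ₗ[ℂ] H) := by simpa using hx
      rw [hbot] at this
      simpa using this
    · intro htop
      apply hy0
      have : y0 ∈ LinearMap.ker (S : H →ₗ[ℂ] H) := by rw [htop]; trivial
      simpa using this
    · intro A hA z hz
      have hz' : S z = 0 := by simpa using hz
      have : S (A z) = 0 := by rw [← hcomm A hA z, hz', map_zero]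
      simpa using this
  · refine ⟨(LinearMap.range (S : H →ₗ[ℂ] H)).topologicalClosure,
      Submodule.isClosed_topologicalClosure _, ?_, ?_, ?_⟩
    · intro hbot
      apply hy0
      have : S y0 ∈ (LinearMap.range (S : H →ₗ[ℂ] H)).topologicalClosure :=
        Submodule.le_topologicalClosure _ ⟨y0, rfl⟩
      rw [hbot] at this
      simpa using this
    · intro htop
      apply hnd
      have hd := (Submodule.dense_iff_topologicalClosure_eq_top
        (s := LinearMap.range (S : H →ₗ[ℂ] H))).2 htop
      have he : ((LinearMap.range (S : H →ₗ[ℂ] H) : Submodule ℂ H) : Set H) = Set.range S := by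
        ext z
        simp
      rw [he] at hd
      exact hd
    · intro A hA z hz
      have hz' : z ∈ closure ((LinearMap.range (S : H →ₗ[ℂ] H) : Submodule ℂ H) : Set H) := hz
      have : A z ∈ closure ((LinearMap.range (S : H →ₗ[ℂ] H) : Submodule ℂ H) : Set H) := by
        refine map_mem_closure A.continuous hz' ?_
        rintro _ ⟨y, rfl⟩
        exact ⟨A y, (hcomm A hA y).symm⟩
      exact this

end Vale.Agent.Results.P131.DoubleCommutant
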